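import Vale.Agent.Lib.P230.Skew.Defs
import Vale.Agent.Lib.P230.Skew.Cover
import Vale.Agent.Lib.P230.Lin.Lattice3

/-!
# P230 skew route: the lattice for the window `‖T x‖² ≤ (997/1000) t`.

Copy of `Lin.lattice_data3` with the grid `N = 12 t n`, `δ = 1/n`, `W = 12 t`: for each height `u` the tree
`Tree u` comes from the hypothesis at `a = u / N`, the family of bodies is indexed by the heights `u - N z`,
`z ∈ Tree u`, `‖T ((u - N z)/N)‖² ≤ (9969/10000) t`, of which there are at most `N^t 2^t`.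
-/

set_option autoImplicit false
set_option linter.unusedSectionVars false
set_option linter.unusedSimpArgs false
set_option linter.unusedVariables false

open MeasureTheory Finset
open scoped ENNReal Matrix Pointwise
open Vale.Agent.Lib.P230.Ball Vale.Agent.Lib.P230.Lin

namespace Vale.Agent.Lib.P230.Skew21

open Vale.Agent.Lib.P230.Skew

variable {d t : ℕ}

/-- A tree of level `i` has at most `2^i` leaves. -/
lemma treeShape_card {t i : ℕ} {A : Finset (Fin t → ℤ)} (h : TreeShape t i A) : A.card ≤ 2 ^ i := by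
  classical
  induction h with
  | base => simp
  | step i hi A B zA zB _ _ _ _ _ ihA ihB =>
    refine (Finset.card_union_le _ _).trans ?_
    have h1 := (Finset.card_image_le (s := A) (f := (· + zA))).trans ihA
    have h2 := (Finset.card_image_le (s := B) (f := (· + zB))).trans ihB
    rw [pow_succ]
    omega

/-- Numerics of the dilation of the heights. -/
lemma aux_dil4 (δ : ℝ) (hδ0 : 0 < δ) (hδk : δ ≤ 1 / 100000) (s T : ℝ) (hT : 0 ≤ T) (hs0 : 0 ≤ s)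
    (hs : s ≤ (9969 / 10000) * T) : ((1 - 2 * δ)⁻¹) ^ 2 * s ≤ (997 / 1000) * T := by
  have hκ0 : 0 < 1 - 2 * δ := by linarith
  have h3 : ((1 - 2 * δ)⁻¹) ^ 2 ≤ (100000 / 99998) ^ 2 := by
    apply pow_le_pow_left₀ (by positivity)
    rw [inv_le_comm₀ hκ0 (by norm_num)]
    norm_num
    linarith
  calc ((1 - 2 * δ)⁻¹) ^ 2 * s ≤ (100000 / 99998) ^ 2 * ((9969 / 10000) * T) :=
        mul_le_mul h3 hs hs0 (by positivity)
    _ ≤ (997 / 1000) * T := by nlinarith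

/-- The window for the erosion. -/
lemma aux_win4 {d t : ℕ} (T : Matrix (Fin t) (Fin t) ℝ) (hT : ∀ i j, |T i j| ≤ 5 / 2)
    (K' : Set ((Fin d → ℝ) × (Fin t → ℝ))) (V₀ : ℝ) (hV₀ : 0 < V₀)
    (hwin : ∀ x : Fin t → ℝ, ∑ i, (T.mulVec x i) ^ 2 ≤ (997 / 1000) * (t : ℝ) →
      ENNReal.ofReal V₀ ≤ volume {y : Fin d → ℝ | (y, x) ∈ K'})
    (htR : (1 : ℝ) ≤ t) (x : Fin t → ℝ) (hx : ∀ i, 0 ≤ x i ∧ x i ≤ 1 / (12 * (t : ℝ))) :
    ∃ y, (y, x) ∈ K' := by
  have ht0 : (0 : ℝ) < t := by linarith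
  have hentry : ∀ i, |T.mulVec x i| ≤ 5 / 24 := by
    intro i
    have h1 : |T.mulVec x i| ≤ ∑ j, |T i j| * |x j| := by
      simp only [Matrix.mulVec, dotProduct]
      refine (Finset.abs_sum_le_sum_abs _ _).trans (le_of_eq ?_)
      exact Finset.sum_congr rfl fun j _ => abs_mul _ _
    have h2 : ∑ j, |T i j| * |x j| ≤ ∑ _j : Fin t, (5 / 2) * (1 / (12 * (t : ℝ))) := by
      apply Finset.sum_le_sum
      intro j _
      rw [abs_of_nonneg (hx j).1]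
      exact mul_le_mul (hT i j) (hx j).2 (hx j).1 (by norm_num)
    have h3 : ∑ _j : Fin t, (5 / 2) * (1 / (12 * (t : ℝ))) = 5 / 24 := by
      simp only [Finset.sum_const, Finset.card_univ, Fintype.card_fin, nsmul_eq_mul]
      field_simp
      norm_num
    linarith
  have hsm : ∑ i, (T.mulVec x i) ^ 2 ≤ (997 / 1000) * (t : ℝ) := by
    have h0 : ∑ i, (T.mulVec x i) ^ 2 ≤ ∑ _i : Fin t, (1 / 4 : ℝ) := by
      apply Finset.sum_le_sum
      intro i _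
      have h1 := abs_le.mp (hentry i)
      nlinarith [h1.1, h1.2]
    simp only [Finset.sum_const, Finset.card_univ, Fintype.card_fin, nsmul_eq_mul] at h0
    linarith
  have hv := hwin x hsm
  by_contra hno
  push Not at hno
  have hempty : {y : Fin d → ℝ | (y, x) ∈ K'} = ∅ := by
    ext y
    simp only [Set.mem_setOf_eq, Set.mem_empty_iff_false, iff_false]
    exact hno y
  rw [hempty, measure_empty] at hv
  have : (0 : ENNReal) < ENNReal.ofReal V₀ := ENNReal.ofReal_pos.mpr hV₀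
  exact absurd hv (not_le.mpr this)

/-- Existence of the lattice in the window `‖T x‖² ≤ (997/1000) t`. -/
theorem lattice_data21 : ∃ d₀ : ℕ, ∀ d ≥ d₀, ∀ t n : ℕ, n = d + t → 100000 ≤ n → 1 ≤ t →
    ((2 * (12 * (t : ℝ) * (n : ℝ))) ^ t ≤ 2 ^ (mstar2 d / 16)) →
    (((2 * (12 * (t : ℝ) * (n : ℝ))) ^ t) ^ (2 ^ t) * ((1 / 2 : ℝ) ^ (mstar2 d / 4)) ^ ⌈(162 / 100 : ℝ) ^ t⌉₊ <
      (1 / 2) * (1 / (4 * (n : ℝ))) ^ d) →
    ∀ T : Matrix (Fin t) (Fin t) ℝ, (∀ i j, |T i j| ≤ 5 / 2) →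
    (∀ a : Fin t → ℝ, ∃ A : Finset (Fin t → ℤ), TreeShape t t A ∧
      (162 / 100 : ℝ) ^ t ≤ ((A.filter fun z =>
        ∑ i, (T.mulVec (fun j => a j - (z j : ℝ)) i) ^ 2 ≤ (9969 / 10000) * (t : ℝ)).card : ℝ)) →
    ∀ K' : Set ((Fin d → ℝ) × (Fin t → ℝ)), Convex ℝ K' → IsCompact K' → ∀ V₀ : ℝ, 0 < V₀ →
    (∀ x : Fin t → ℝ, ∑ i, (T.mulVec x i) ^ 2 ≤ (997 / 1000) * (t : ℝ) →
      ENNReal.ofReal V₀ ≤ volume {y : Fin d → ℝ | (y, x) ∈ K'}) →
    ∃ (B : Matrix (Fin d ⊕ Fin t) (Fin d ⊕ Fin t) ℤ) (R : ℕ), 0 < R ∧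
      (∀ x : (Fin d → ℝ) × (Fin t → ℝ), ∃ k : Fin d ⊕ Fin t → ℤ,
        (x.1 - (fun i => ((B.mulVec k (Sum.inl i) : ℤ) : ℝ) / R),
          x.2 - (fun i => ((B.mulVec k (Sum.inr i) : ℤ) : ℝ))) ∈ K') ∧
      (R : ℝ) ^ d * ((1 - 2 / (n : ℝ)) ^ d * V₀) / 2 ^ (efin2 d + 2) ≤ |(B.det : ℝ)| := by
  classical
  obtain ⟨d₁, hd₁⟩ := base_hash2
  obtain ⟨d₂, hd₂⟩ := schedule_big
  refine ⟨max d₁ d₂, fun d hd t n hn hn8 ht1 hnum1 hnum2 T hT hleaf K' hK'c hK' V₀ hV₀ hwin => ?_⟩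
  have hBig := hd₂ d (le_trans (le_max_right _ _) hd)
  have hbase := hd₁ d (le_trans (le_max_left _ _) hd)
  have hdge : 2 ≤ d := hBig.1
  have hd0 : 0 < d := by omega
  have hn0 : 0 < n := by omega
  have hnR : (100000 : ℝ) ≤ n := by exact_mod_cast hn8
  have hnR0 : (0 : ℝ) < n := by linarith
  set δ : ℝ := 1 / (n : ℝ) with hδ
  have hδ0 : 0 < δ := by positivity
  have hδk : δ ≤ 1 / 100000 := by
    rw [hδ]
    apply one_div_le_one_div_of_le (by norm_num) hnR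
  have hδ8 : δ ≤ 1 / 8 := by linarith
  have hδ1 : δ ≤ 1 / 4 := by linarith
  have hκ : 1 - 2 * δ = 1 - 2 / (n : ℝ) := by
    rw [hδ]
    ring
  have hκ0 : 0 < 1 - 2 * δ := by linarith
  have hκ1 : 1 - 2 * δ ≤ 1 := by linarith
  have hzero : ∑ i, (T.mulVec (0 : Fin t → ℝ) i) ^ 2 ≤ (997 / 1000) * (t : ℝ) := by
    simp only [Matrix.mulVec_zero, Pi.zero_apply]
    simp
  obtain ⟨cy, C₁, C₀, hcy, hC₁c, hC₁K, hC₀c, hC₀K, hsym, hC, hadd, hv₁, hv₀, r, hr, hball⟩ :=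
    eroder2 hd0 K' hK'c hK' V₀ hV₀ (hwin 0 hzero) δ hδ0
  -- the grid and the trees
  have htR : (1 : ℝ) ≤ t := by exact_mod_cast ht1
  set N : ℕ := 12 * t * n with hNdef
  have hN0 : 0 < N := by
    rw [hNdef]
    have h12 : 0 < 12 * t := by omega
    exact Nat.mul_pos h12 hn0
  have hNR : (N : ℝ) = 12 * (t : ℝ) * (n : ℝ) := by
    rw [hNdef]
    push_cast
    ring
  have hNR0 : (0 : ℝ) < (N : ℝ) := by exact_mod_cast hN0
  choose Tree hTree hTcount using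
    fun u : Fin t → ℤ => hleaf (fun i => (u i : ℝ) / (N : ℝ))
  let Gd : (Fin t → ℤ) → (Fin t → ℤ) → Prop := fun u z =>
    ∑ i, (T.mulVec (fun j => (u j : ℝ) / (N : ℝ) - (z j : ℝ)) i) ^ 2 ≤ (9969 / 10000) * (t : ℝ)
  let roots : Finset (Fin t → ℤ) := Fintype.piFinset fun _ => Finset.Ico (0 : ℤ) (N : ℤ)
  let H : Finset (Fin t → ℤ) :=
    roots.biUnion fun u => ((Tree u).filter (Gd u)).image fun z => u - (N : ℤ) • z
  have hHmem : ∀ w ∈ H, ∃ u z, Gd u z ∧ w = u - (N : ℤ) • z := by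
    intro w hw
    simp only [H, Finset.mem_biUnion, Finset.mem_image, Finset.mem_filter] at hw
    obtain ⟨u, _, z, ⟨_, hz⟩, rfl⟩ := hw
    exact ⟨u, z, hz, rfl⟩
  have hHmem' : ∀ u ∈ roots, ∀ z ∈ Tree u, Gd u z → u - (N : ℤ) • z ∈ H := by
    intro u hu z hz hg
    simp only [H, Finset.mem_biUnion, Finset.mem_image, Finset.mem_filter]
    exact ⟨u, hu, z, ⟨hz, hg⟩, rfl⟩
  have hHcard : H.card ≤ (2 * N) ^ t := by
    have h1 : H.card ≤ ∑ u ∈ roots, ((Tree u).filter (Gd u)).card :=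
      Finset.card_biUnion_le.trans (Finset.sum_le_sum fun u _ => Finset.card_image_le)
    have h2 : ∀ u ∈ roots, ((Tree u).filter (Gd u)).card ≤ 2 ^ t := fun u _ =>
      (Finset.card_filter_le _ _).trans (treeShape_card (hTree u))
    have h3 : roots.card = N ^ t := by
      simp [roots, Fintype.card_piFinset, Int.card_Ico]
    calc H.card ≤ ∑ u ∈ roots, ((Tree u).filter (Gd u)).card := h1
      _ ≤ ∑ _u ∈ roots, 2 ^ t := Finset.sum_le_sum h2
      _ = N ^ t * 2 ^ t := by rw [Finset.sum_const, h3, smul_eq_mul]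
      _ = (2 * N) ^ t := by rw [mul_pow 2 N t, mul_comm]
  have hleaf_good : ∀ u : Fin t → ℤ, ⌈(162 / 100 : ℝ) ^ t⌉₊ ≤ ((Tree u).filter (Gd u)).card := by
    intro u
    apply Nat.ceil_le.mpr
    exact hTcount u
  have hroot0 : (0 : Fin t → ℤ) ∈ roots := by
    simp only [roots, Fintype.mem_piFinset, Finset.mem_Ico, Pi.zero_apply]
    intro _
    exact ⟨le_refl _, by exact_mod_cast hN0⟩
  have hHne : ∃ w, w ∈ H := by
    have h1 : 0 < ((Tree 0).filter (Gd 0)).card := by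
      have h2 : 0 < ⌈(162 / 100 : ℝ) ^ t⌉₊ := Nat.ceil_pos.mpr (by positivity)
      exact lt_of_lt_of_le h2 (hleaf_good 0)
    obtain ⟨z, hz⟩ := Finset.card_pos.mp h1
    rw [Finset.mem_filter] at hz
    exact ⟨_, hHmem' 0 hroot0 z hz.1 hz.2⟩
  -- the family of bodies
  let U : Type := ↥H
  have hdil : ∀ u : U, ENNReal.ofReal V₀ ≤ volume {y : Fin d → ℝ |
      (y, (1 - 2 * δ)⁻¹ • (fun i => (u.1 i : ℝ) / (N : ℝ))) ∈ K'} := by
    intro u
    apply hwin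
    obtain ⟨r, z, hg, hw⟩ := hHmem u.1 u.2
    have hx : (fun i => (u.1 i : ℝ) / (N : ℝ)) = fun j => (r j : ℝ) / (N : ℝ) - (z j : ℝ) := by
      funext j
      rw [hw]
      simp only [Pi.sub_apply, Pi.smul_apply, smul_eq_mul]
      push_cast
      field_simp
    rw [hx, Matrix.mulVec_smul]
    have h2 : ∑ i, (((1 - 2 * δ)⁻¹ • T.mulVec fun j => (r j : ℝ) / (N : ℝ) - (z j : ℝ)) i) ^ 2 =
        ((1 - 2 * δ)⁻¹) ^ 2 * ∑ i, (T.mulVec (fun j => (r j : ℝ) / (N : ℝ) - (z j : ℝ)) i) ^ 2 := by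
      rw [Finset.mul_sum]
      apply Finset.sum_congr rfl
      intro i _
      simp only [Pi.smul_apply, smul_eq_mul]
      ring
    rw [h2]
    have h4 : 0 ≤ ∑ i, (T.mulVec (fun j => (r j : ℝ) / (N : ℝ) - (z j : ℝ)) i) ^ 2 :=
      Finset.sum_nonneg fun i _ => sq_nonneg _
    exact aux_dil4 δ hδ0 hδk _ _ (Nat.cast_nonneg t) h4 hg
  choose B' hB'c hB'K hB'v hB'mem using fun u : U =>
    body_family2 hd0 K' hK'c hK' V₀ hV₀ δ hδ0 hδ1 cy (fun i => (u.1 i : ℝ) / (N : ℝ)) (hdil u)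
  set V₁ : ℝ := (1 - 2 * δ) ^ d * V₀ with hV₁def
  have hV₁ : 0 < V₁ := by positivity
  have hB'v' : ∀ u, (volume (B' u)).toReal = V₁ := by
    intro u
    rw [hB'v u, ENNReal.toReal_ofReal hV₁.le]
  choose! W₀fun hW₀fun using hbase
  have hv₁' : (volume C₁).toReal = (δ / 4) ^ d * V₀ := by
    rw [hv₁, ENNReal.toReal_ofReal (by positivity)]
  have hv₀' : (volume C₀).toReal = (δ / 2) ^ d * V₀ := by
    rw [hv₀, ENNReal.toReal_ofReal (by positivity)]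
  obtain ⟨θ, R, W, Q, P, hθ, hR, hP, hW, hQ1, hQ2, hgood, hP1, hP2, hY1c, hY0c, hRr, hPdvd⟩ :=
    select_R hdge B' V₁ hV₁ hB'c hB'K hB'v' C₁ C₀ hC₁c hC₁K hC₀c hC₀K ((δ / 4) ^ d * V₀)
      ((δ / 2) ^ d * V₀) (by positivity) (by positivity) hv₁' hv₀' (e02 d) r hr W₀fun
  have : Fact P.Prime := ⟨hP⟩
  have hR0 : (0 : ℝ) < R := by exact_mod_cast hR
  have hRd : (0 : ℝ) < (R : ℝ) ^ d := by positivity
  have hPpos : (0 : ℝ) < P := by exact_mod_cast hP.pos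
  set Y0 : Finset (Fin d → ℤ) := (lat C₀ R).erase 0 with hY0
  have hY0dvd : ∀ y ∈ Y0, ∃ i, ¬ (P : ℤ) ∣ y i := by
    intro y hy
    rw [hY0, Finset.mem_erase] at hy
    exact hPdvd y hy.2 hy.1
  have hY0card : 8 * Y0.card ≤ P := by
    have h1 : (Y0.card : ℝ) ≤ (lat C₀ R).card := by
      exact_mod_cast Finset.card_erase_le
    exact aux_Y0card3 hBig.2.2 δ hδ0 hδ8 V₀ hV₀ R P _ hRd (h1.trans hY0c) hP2
  have hUcard : (Fintype.card U : ℝ) ≤ (2 * (12 * (t : ℝ) * (n : ℝ))) ^ t := by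
    have h1 : Fintype.card U ≤ (2 * N) ^ t := by
      rw [Fintype.card_coe]
      exact hHcard
    have h2 : (Fintype.card U : ℝ) ≤ (((2 * N) ^ t : ℕ) : ℝ) := by exact_mod_cast h1
    refine h2.trans (le_of_eq ?_)
    push_cast
    rw [hNR]
  obtain ⟨r', ρ, hne, hvoid⟩ := hW₀fun θ hθ U (fun u => lat (B' u) R) ((R : ℝ) ^ d * V₁) W Q P Y0
    (hUcard.trans hnum1) hW hQ1 hQ2 hgood hP1 hP2 hY0dvd hY0card
  have hcardG : (Fintype.card (ZMod P × (Fin (mstar2 d) → ZMod 2)) : ℝ) = (P : ℝ) * 2 ^ mstar2 d := by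
    simp [Fintype.card_prod, ZMod.card, Fintype.card_fun]
  have hm := hBig.2.1
  set ε : ℝ := (1 / 2 : ℝ) ^ (mstar2 d / 4) with hε
  have hε0 : 0 < ε := by positivity
  have hε1 : ε < 1 / 2 := by
    have h1 : (1 / 2 : ℝ) ^ (mstar2 d / 4) ≤ (1 / 2 : ℝ) ^ 2 :=
      pow_le_pow_of_le_one (by norm_num) (by norm_num) (by omega)
    rw [hε]
    norm_num at h1 ⊢
    linarith
  have hcardmul : ∀ (S : Finset (ZMod P × (Fin (mstar2 d) → ZMod 2))), ((S.card : ℝ) ≤ ε * ((P : ℝ) * 2 ^ mstar2 d)) →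
      (S.card : ℝ) ≤ ε * (Fintype.card (ZMod P × (Fin (mstar2 d) → ZMod 2)) : ℝ) := by
    intro S hS
    rw [hcardG]
    exact hS
  -- the family of lattice points
  let A : (Fin t → ℤ) → Finset (Fin d → ℤ) := fun u =>
    if hu : u ∈ H then lat (B' ⟨u, hu⟩) R else ∅
  have hAeq : ∀ u (hu : u ∈ H), A u = lat (B' ⟨u, hu⟩) R := fun u hu => dif_pos hu
  have hAne : ∀ u (hu : u ∉ H), A u = ∅ := fun u hu => dif_neg hu
  have hA : ∀ u : Fin t → ℤ, ∀ a ∈ A u,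
      ((1 - 2 * δ)⁻¹ • ((fun i => (a i : ℝ) / R) - (2 * δ) • cy),
        (1 - 2 * δ)⁻¹ • (fun i => (u i : ℝ) / (N : ℝ))) ∈ K' := by
    intro u a ha
    by_cases hu' : u ∈ H
    · rw [hAeq u hu'] at ha
      have h1 := (mem_lat (hB'K ⟨u, hu'⟩).isBounded hR a).mp ha
      exact hB'mem ⟨u, hu'⟩ _ h1
    · rw [hAne u hu'] at ha
      simp at ha
  let σ : (Fin t → ℤ) → ℝ := fun u => if u ∈ H then ε else 1
  have hσ : ∀ u, 0 < σ u := by
    intro u
    simp only [σ]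
    split_ifs
    · exact hε0
    · exact one_pos
  have hG0 : (0 : ℝ) ≤ Fintype.card (ZMod P × (Fin (mstar2 d) → ZMod 2)) := Nat.cast_nonneg _
  have hvoid' : ∀ [DecidableEq (ZMod P × (Fin (mstar2 d) → ZMod 2))],
      ∀ u : Fin t → ℤ,
      (((univ \ (A u).image (hash r' ρ) : Finset (ZMod P × (Fin (mstar2 d) → ZMod 2)))).card : ℝ) ≤
        σ u * Fintype.card (ZMod P × (Fin (mstar2 d) → ZMod 2)) := by
    intro _ u
    by_cases hu' : u ∈ H
    · have hσu : σ u = ε := if_pos hu'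
      rw [hσu]
      have h1 := hvoid ⟨u, hu'⟩
      apply hcardmul
      convert h1 using 3
      ext c
      simp only [Finset.mem_sdiff, Finset.mem_univ, true_and, Finset.mem_image, Finset.mem_filter,
        hAeq u hu', not_exists, not_and]
    · have hσu : σ u = 1 := if_neg hu'
      rw [hσu, one_mul]
      exact_mod_cast Finset.card_le_univ _
  obtain ⟨u₀, hu₀⟩ := hHne
  have hsurj : Function.Surjective (hash r' ρ) :=
    surj_of_large (hash r' ρ) (lat (B' ⟨u₀, hu₀⟩) R) ε hε1 (hcardmul _ (hvoid ⟨u₀, hu₀⟩))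
  have hinj : Set.InjOn (hash r' ρ) (lat C₁ R : Set (Fin d → ℤ)) :=
    aux_inj (hash r' ρ) C₁ C₀ hC₁K hC₀K hsym hadd R hR hne
  have he0 : e02 d = efin2 d + mstar2 d := rfl
  have hcardle : (P : ℝ) * 2 ^ mstar2 d ≤ (R : ℝ) ^ d * V₀ :=
    aux_cardle3 δ hκ0 hκ1 V₀ hV₀ R P hRd hPpos hP1
  have hdel4 : δ / 4 = 1 / (4 * (n : ℝ)) := by
    rw [hδ]
    field_simp
  have hZ : ((N : ℝ) ^ t * 2 ^ t) = (2 * (12 * (t : ℝ) * (n : ℝ))) ^ t := by
    rw [hNR, mul_pow 2, mul_comm]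
  have hcount : ∀ u : Fin t → ℤ, (∀ i, 0 ≤ u i ∧ u i < (N : ℤ)) →
      ((N : ℝ) ^ t * 2 ^ t) ^ (2 ^ t) * (∏ z ∈ Tree u, σ (u - (N : ℤ) • z)) *
      Fintype.card (ZMod P × (Fin (mstar2 d) → ZMod 2)) < (lat C₁ R).card := by
    intro u hu
    rw [hcardG, hZ]
    have hroot : u ∈ roots := by
      simp only [roots, Fintype.mem_piFinset, Finset.mem_Ico]
      exact hu
    have hprod : ∏ z ∈ Tree u, σ (u - (N : ℤ) • z) ≤ ε ^ ⌈(162 / 100 : ℝ) ^ t⌉₊ := by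
      have h1 : ∏ z ∈ Tree u, σ (u - (N : ℤ) • z) ≤ ∏ z ∈ Tree u, (if Gd u z then ε else 1) := by
        apply Finset.prod_le_prod (fun z _ => (hσ _).le)
        intro z hz
        by_cases hg : Gd u z
        · simp only [σ, hg, if_true, if_pos (hHmem' u hroot z hz hg)]
          exact le_refl _
        · simp only [hg, if_false, σ]
          split_ifs
          · linarith
          · exact le_refl _
      have h2 : ∏ z ∈ Tree u, (if Gd u z then ε else 1) = ε ^ ((Tree u).filter (Gd u)).card := by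
        rw [Finset.prod_ite]
        simp
      rw [h2] at h1
      exact h1.trans (pow_le_pow_of_le_one hε0.le (by linarith) (hleaf_good u))
    exact aux_count (n : ℝ) hnR0 _ _ _ _ V₀ _ _ δ hdel4 (by positivity) (by positivity) hprod
      (by positivity) hV₀ hRd hnum2 hcardle hY1c
  have hcov := abstract_cover3 (G := ZMod P × (Fin (mstar2 d) → ZMod 2)) K' hK'c δ hδ0 hδ1 N hN0
    (12 * (t : ℝ)) (by positivity) (by
      rw [hδ, hNR]
      apply le_of_eq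
      field_simp) cy hcy (fun x hx => aux_win4 T hT K' V₀ hV₀ hwin htR x hx)
    C₁ hsym hC R hR (by
      intro τ hτ
      apply hball
      intro i
      rw [abs_of_nonneg (hτ i).1]
      exact (hτ i).2.trans hRr) (hash r' ρ) hsurj A hA (lat C₁ R)
    (fun m hm => (mem_lat hC₁K.isBounded hR m).mp hm) hinj σ hσ
    (@hvoid' (fun a b => Classical.propDecidable (a = b))) Tree hTree hcount
  obtain ⟨B, hdet, hB⟩ := hcov
  refine ⟨B, R, hR, hB, ?_⟩
  have hdet' : |(B.det : ℝ)| = (P : ℝ) * 2 ^ mstar2 d := by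
    rw [← hcardG]
    have h1 : ((|B.det| : ℤ) : ℝ) = ((Fintype.card (ZMod P × (Fin (mstar2 d) → ZMod 2)) : ℤ) : ℝ) := by
      rw [hdet]
    simpa using h1
  rw [hdet', ← hκ, div_le_iff₀ (by positivity)]
  have h2 : (2 : ℝ) ^ (e02 d + 2) = 2 ^ mstar2 d * 2 ^ (efin2 d + 2) := by
    rw [he0, ← pow_add]
    congr 1
    ring
  rw [h2] at hP2
  calc (R : ℝ) ^ d * ((1 - 2 * δ) ^ d * V₀) ≤ 2 ^ mstar2 d * 2 ^ (efin2 d + 2) * (P : ℝ) := hP2
    _ = _ := by ring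

end Vale.Agent.Lib.P230.Skew21
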